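import Mathlib
import Vale.Agent.Helper27.P201.Inv

namespace Vale.Agent.Results.P201.CosetPlusPoint

open Vale.Agent.Helper27.P201

/-- Let `G` be a torsion-free group, `K` a field and `N` a normal subgroup of `G` with the
unique-product property (no hypothesis on the quotient `G / N`). If all elements of the support
of `α ≠ 0`, except possibly one element `g₀`, lie in a single coset `N h₀`, then `α` is neither a
left nor a right zero divisor of the group algebra `K[G]`. -/
theorem result {K G : Type*} [Field K] [Group G]
    (hG : ∀ (g : G) (n : ℕ), 0 < n → g ^ n = 1 → g = 1)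
    (N : Subgroup G) [N.Normal] [UniqueProds N]
    (α : MonoidAlgebra K G) (hα : α ≠ 0) (g₀ h₀ : G)
    (hsupp : ∀ g ∈ α.coeff.support, g = g₀ ∨ g * h₀⁻¹ ∈ N)
    (β : MonoidAlgebra K G) : (α * β = 0 → β = 0) ∧ (β * α = 0 → β = 0) :=
  coset_point_two_sided hG N α hα g₀ h₀ hsupp β

end Vale.Agent.Results.P201.CosetPlusPoint
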