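import Mathlib
import Vale.Agent.Helper27.P201.Core

namespace Vale.Agent.Results.P201.FibreBound

open Vale.Agent.Helper27.P201

/-- Let `G` be a torsion-free group and `K` a semiring without zero divisors. If `α * β = 0` in the
group algebra `K[G]` with `α ≠ 0` and `β ≠ 0`, then for every homomorphism `φ` from `G` to a
right-ordered group `A`, the maximum of `φ` on the support of `α` is attained at least three
times. -/
theorem result {K G A : Type*} [Semiring K] [NoZeroDivisors K] [Group G]
    [Group A] [LinearOrder A] [MulRightStrictMono A]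
    (hG : ∀ (g : G) (n : ℕ), 0 < n → g ^ n = 1 → g = 1)
    (α β : MonoidAlgebra K G) (hα : α ≠ 0) (hβ : β ≠ 0) (h : α * β = 0) (φ : G →* A) :
    3 ≤ Set.ncard {g : G | g ∈ α.coeff.support ∧ ∀ x ∈ α.coeff.support, φ x ≤ φ g} := by
  classical
  obtain ⟨β', hβ', hprod⟩ := production α β hβ h φ φ φ (fun g _ y => map_mul φ g y)
  have hset : {g : G | g ∈ α.coeff.support ∧ ∀ x ∈ α.coeff.support, φ x ≤ φ g}
      = ((α.coeff.filter (fun g => ∀ x ∈ α.coeff.support, φ x ≤ φ g)).support : Set G) := by
    ext g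
    simp [Finsupp.support_filter]
  rw [hset, Set.ncard_coe_finset]
  by_contra hlt
  push Not at hlt
  have hne : MonoidAlgebra.ofCoeff
      (α.coeff.filter (fun g => ∀ x ∈ α.coeff.support, φ x ≤ φ g)) ≠ 0 := by
    obtain ⟨g₀, hg₀, hmax⟩ :=
      Finset.exists_max_image α.coeff.support φ (support_nonempty_of_ne_zero α hα)
    intro h0
    have h1 := congrArg (fun γ : MonoidAlgebra K G => γ.coeff g₀) h0
    simp only [MonoidAlgebra.coeff_zero, Finsupp.coe_zero, Pi.zero_apply] at h1
    rw [MonoidAlgebra.coeff_ofCoeff,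
      Finsupp.filter_apply_pos (fun g => ∀ x ∈ α.coeff.support, φ x ≤ φ g) _ hmax] at h1
    exact (Finsupp.mem_support_iff.mp hg₀) h1
  exact hβ' (two_term hG _ β' hne (by rw [MonoidAlgebra.coeff_ofCoeff]; omega) hprod)

end Vale.Agent.Results.P201.FibreBound
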