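import Mathlib
import Vale.Agent.Helper27.P201.Local

namespace Vale.Agent.Results.P201.SmallSupport

open Vale.Agent.Helper27.P201

/-- Let `G` be a torsion-free group, `K` a semiring without zero divisors and `A` a right-ordered
group. Let `α ≠ 0` be an element of the group algebra `K[G]` with support `S`, of any size.
Suppose that for every subset `T` of `S` with at least three elements which is `S` itself or has
at most half as many elements as `S`, the subgroup of `G` generated by the quotients `g⁻¹ * h`
with `g, h ∈ T` admits a nontrivial homomorphism to `A`. Then `α` is not a left zero divisor.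

For at most five terms the only condition is the one for `T = S`. -/
theorem result {K G A : Type*} [Semiring K] [NoZeroDivisors K] [Group G]
    [Group A] [LinearOrder A] [MulRightStrictMono A]
    (hG : ∀ (g : G) (n : ℕ), 0 < n → g ^ n = 1 → g = 1)
    (α : MonoidAlgebra K G) (hα : α ≠ 0)
    (hφ : ∀ T : Finset G, T ⊆ α.coeff.support → 3 ≤ T.card →
      (T = α.coeff.support ∨ 2 * T.card ≤ α.coeff.support.card) →
      ∃ φ : Subgroup.closure {z : G | ∃ g ∈ T, ∃ h ∈ T, z = g⁻¹ * h} →* A, φ ≠ 1)
    (β : MonoidAlgebra K G) (h : α * β = 0) : β = 0 :=
  local_descent hG α.coeff.support hφ α.coeff.support.card α hα (Finset.Subset.refl _) rfl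
    (Or.inl rfl) β h

end Vale.Agent.Results.P201.SmallSupport
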