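import Mathlib
import Vale.Agent.Helper27.P201.TriMain

namespace Vale.Agent.Results.P201.Trinomial

open Vale.Agent.Helper27.P201

/-- Let `G` be a torsion-free group, `K` a commutative ring without zero divisors and
`α = a + b x + c y` a nonzero trinomial in the group algebra `K[G]`. If one of the four subgroups
`⟨x, y⟩`, `⟨y, x y x⁻¹, x²⟩`, `⟨x, y x y⁻¹, y²⟩`, `⟨x², x y, y x, y²⟩` of `G` admits a nontrivial
homomorphism to a right-ordered group `A` (for instance to `ℤ`), then `α` is not a left zero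
divisor. -/
theorem result {K G A : Type*} [CommRing K] [NoZeroDivisors K] [Group G]
    [Group A] [LinearOrder A] [MulRightStrictMono A]
    (hG : ∀ (g : G) (n : ℕ), 0 < n → g ^ n = 1 → g = 1)
    (a b c : K) (x y : G)
    (hα : MonoidAlgebra.single 1 a + MonoidAlgebra.single x b + MonoidAlgebra.single y c ≠ 0)
    (hφ : (∃ φ : Subgroup.closure {x, y} →* A, φ ≠ 1) ∨
          (∃ φ : Subgroup.closure {y, x * y * x⁻¹, x ^ 2} →* A, φ ≠ 1) ∨
          (∃ φ : Subgroup.closure {x, y * x * y⁻¹, y ^ 2} →* A, φ ≠ 1) ∨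
          (∃ φ : Subgroup.closure {x ^ 2, x * y, y * x, y ^ 2} →* A, φ ≠ 1))
    (β : MonoidAlgebra K G)
    (h : (MonoidAlgebra.single 1 a + MonoidAlgebra.single x b + MonoidAlgebra.single y c) * β
      = 0) : β = 0 := by
  by_contra hβ
  rcases hφ with ⟨φ, hne⟩ | ⟨φ, hne⟩ | ⟨φ, hne⟩ | ⟨φ, hne⟩
  · exact hne (tri_claim1 hG a b c x y β hβ hα h φ)
  · exact hne (tri_claim2 hG a b c x y β hβ hα h φ)
  · have e : MonoidAlgebra.single 1 a + MonoidAlgebra.single y c + MonoidAlgebra.single x b
        = MonoidAlgebra.single 1 a + MonoidAlgebra.single x b + MonoidAlgebra.single y c := by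
      abel
    exact hne (tri_claim2 hG a c b y x β hβ (by rw [e]; exact hα) (by rw [e]; exact h) φ)
  · exact hne (tri_claim4 hG a b c x y β hβ hα h φ)

end Vale.Agent.Results.P201.Trinomial
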